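import Vale.Agent.P254.SP.H567.Lim

/-!
P254, block SP, row SP-EQ12 (helper567), part 2: Gaussian integration by parts and the Poincare
inequality for `C¹` functions of polynomial growth, `grad_lim`, `weak_symm`.
-/

set_option autoImplicit false
set_option linter.all false

open MeasureTheory ProbabilityTheory Matrix Filter Topology Set

namespace Vale.Agent.P254.SP567

open Vale.Agent.P227.M Vale.Agent.P254.S Vale.Agent.P254.SP Vale.Agent.P254.SP620
open Vale.Agent.P157.Lv

variable {n : ℕ}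

theorem eg_of_gr {f : E n → ℝ} (hf : Gr f) : EG fun y : Fin n → ℝ => f (WithLp.toLp 2 y) := by
  obtain ⟨L, hL, hLy⟩ := S129.exists_toLp_le n
  obtain ⟨hc, B, k, hB, hb⟩ := hf
  refine ⟨(hc.comp S129.continuous_toLp').measurable, B, k * L, hB, by positivity, fun y => ?_⟩
  have h1 := hb (WithLp.toLp 2 y)
  have h2 : (1 + ‖(WithLp.toLp 2 y : E n)‖) ^ k ≤ Real.exp (k * L * ‖y‖) := by
    have h3 : 1 + ‖(WithLp.toLp 2 y : E n)‖ ≤ Real.exp (L * ‖y‖) := by
      have h4 := Real.add_one_le_exp (L * ‖y‖)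
      have h5 := hLy y
      linarith
    calc (1 + ‖(WithLp.toLp 2 y : E n)‖) ^ k ≤ (Real.exp (L * ‖y‖)) ^ k :=
          pow_le_pow_left₀ (by positivity) h3 k
      _ = Real.exp (k * L * ‖y‖) := by
          rw [← Real.exp_nat_mul]
          congr 1
          ring
  exact h1.trans (mul_le_mul_of_nonneg_left h2 hB)

/-- Gaussian integration by parts -/
theorem ibp {f : E n → ℝ} (hf : ContDiff ℝ 1 f) (hg : Gr f) (i : Fin n) (hp : Gr (pd i f)) :
    Ex Q (fun z => z i * f z) = Ex Q (pd i f) := by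
  rw [S129.Ex_eq, S129.Ex_eq]
  exact PD.stein (S129.PD_of_C1 (hf.differentiable one_ne_zero) i) (eg_of_gr hg) (eg_of_gr hp)

/-- Gaussian Poincare inequality -/
theorem poi {f : E n → ℝ} (hf : ContDiff ℝ 1 f) (hg : Gr f) (hp : ∀ i, Gr (pd i f)) :
    Ex Q (fun z => (f z - Ex Q f) ^ 2) ≤ Ex Q (fun z => ∑ i, (pd i f z) ^ 2) := by
  have hfd : Differentiable ℝ f := hf.differentiable one_ne_zero
  have h := cc_var_le_one (eg_of_gr hg) (fun e => S129.PD_of_C1 hfd e) fun e => eg_of_gr (hp e)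
  rw [S129.Ex_eq, S129.Ex_eq (fun z => ∑ i, (pd i f z) ^ 2), S129.Ex_eq f]
  have h2 : ∫ y, ∑ i, pd i f (WithLp.toLp 2 y) ^ 2 ∂(gI (Fin n)) =
      ∑ e, ∫ y, pd e f (WithLp.toLp 2 y) ^ 2 ∂(gI (Fin n)) :=
    integral_finsetSum _ fun e _ => ((eg_of_gr (hp e)).pow 2).integrable
  rw [h2]
  exact h

theorem gr_pd_BP {φ V : E n → ℝ} {a b M κ : ℝ} (h : BP φ V a b M κ) (i : Fin n) :
    Gr (pd i φ) := S151.gr_pd h i

theorem pd_sub {f g : E n → ℝ} (hf : Differentiable ℝ f) (hg : Differentiable ℝ g) (i : Fin n)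
    (z : E n) : pd i (fun z => f z - g z) z = pd i f z - pd i g z := by
  unfold pd
  have h : HasFDerivAt (fun z => f z - g z) (fderiv ℝ f z - fderiv ℝ g z) z :=
    (hf z).hasFDerivAt.sub (hg z).hasFDerivAt
  rw [h.fderiv]
  rfl

theorem pd_mul {f g : E n → ℝ} (hf : Differentiable ℝ f) (hg : Differentiable ℝ g) (i : Fin n)
    (z : E n) : pd i (fun z => f z * g z) z = pd i f z * g z + f z * pd i g z := by
  unfold pd
  have h := (hf z).hasFDerivAt.mul (hg z).hasFDerivAt
  have h' : HasFDerivAt (fun z => f z * g z) (f z • fderiv ℝ g z + g z • fderiv ℝ f z) z := h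
  rw [h'.fderiv]
  simp only [_root_.add_apply, _root_.smul_apply, smul_eq_mul]
  ring

/-- **SP-EQ12** the maps converge in `L²(γ)` up to constants -/
theorem grad_lim (φ V : ℕ → E n → ℝ) (a b M κ : ℕ → ℝ)
    (hB : ∀ k, BP (φ k) (V k) (a k) (b k) (M k) (κ k))
    (M0 : E n → Matrix (Fin n) (Fin n) ℝ)
    (hM : Tendsto (fun k => Ex Q (fun z => fr (hess (φ k) z - M0 z))) atTop (𝓝 0))
    (hM0 : ∀ i j, Gr fun z => M0 z i j)
    (T : Fin n → E n → ℝ) (hT : ∀ i, ContDiff ℝ 1 (T i)) (hTg : ∀ i, Gr (T i))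
    (hTd : ∀ i j z, pd j (T i) z = M0 z j i) (i : Fin n) :
    Tendsto (fun k => Ex Q (fun z => (gradient (φ k) z i - Ex Q (fun z => gradient (φ k) z i)
      - (T i z - Ex Q (T i))) ^ 2)) atTop (𝓝 0) := by
  refine squeeze_zero (fun k => Ex_nonneg _ fun z => sq_nonneg _) (fun k => ?_) hM
  have h0 := hB k
  have hC : ContDiff ℝ 1 (pd i (φ k)) := contDiff_pd h0.C2 (by norm_num) i
  have hC1 : ContDiff ℝ 1 fun z => pd i (φ k) z - T i z := hC.sub (hT i)
  have hG1 : Gr fun z => pd i (φ k) z - T i z := (gr_pd_BP h0 i).sub (hTg i)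
  have hpd : ∀ j, pd j (fun z => pd i (φ k) z - T i z) = fun z => hess (φ k) z j i - M0 z j i :=
    fun j => by
      funext z
      rw [pd_sub (hC.differentiable one_ne_zero) ((hT i).differentiable one_ne_zero), hTd]
      rfl
  have hG2 : ∀ j, Gr (pd j fun z => pd i (φ k) z - T i z) := fun j => by
    rw [hpd]
    exact (gr_hess h0 j i).sub (hM0 j i)
  have h1 := poi hC1 hG1 hG2
  have e1 : Ex Q (fun z => pd i (φ k) z - T i z) =
      Ex Q (fun z => gradient (φ k) z i) - Ex Q (T i) := by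
    simp only [S151.gradient_apply]
    exact Ex_sub regQ (gr_pd_BP h0 i) (hTg i)
  have e2 : (fun z => (gradient (φ k) z i - Ex Q (fun z => gradient (φ k) z i)
      - (T i z - Ex Q (T i))) ^ 2) = fun z => (pd i (φ k) z - T i z -
        Ex Q (fun z => pd i (φ k) z - T i z)) ^ 2 := by
    funext z
    rw [e1, S151.gradient_apply]
    ring
  rw [e2]
  refine h1.trans ?_
  have hS : Gr fun z => ∑ j, (pd j (fun z => pd i (φ k) z - T i z) z) ^ 2 :=
    Gr.sum _ fun j _ => (hG2 j).pow 2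
  refine Ex_mono regQ hS (gr_fr fun i j => ?_) fun z => ?_
  · simp only [Matrix.sub_apply]
    exact (gr_hess h0 i j).sub (hM0 i j)
  · simp only [hpd]
    unfold fr
    simp only [Matrix.sub_apply]
    rw [Finset.sum_comm]
    exact Finset.single_le_sum (f := fun i => ∑ j, (hess (φ k) z j i - M0 z j i) ^ 2)
      (fun _ _ => Finset.sum_nonneg fun _ _ => sq_nonneg _) (Finset.mem_univ i)

/-- Gaussian adjoint of `∂_k` -/
noncomputable def ds (k : Fin n) (ψ : E n → ℝ) (z : E n) : ℝ := z k * ψ z - pd k ψ z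

theorem pd_coord (j k : Fin n) (z : E n) :
    pd j (fun z : E n => z k) z = if j = k then 1 else 0 := by
  unfold pd ei
  have h : HasFDerivAt (fun z : E n => z k) (EuclideanSpace.proj k : E n →L[ℝ] ℝ) z :=
    (EuclideanSpace.proj k : E n →L[ℝ] ℝ).hasFDerivAt
  rw [h.fderiv]
  simp [EuclideanSpace.single_apply, eq_comm]

theorem coord_contDiff (k : Fin n) : ContDiff ℝ 2 fun z : E n => z k :=
  (EuclideanSpace.proj k : E n →L[ℝ] ℝ).contDiff

theorem ds_contDiff {ψ : E n → ℝ} (hψ : ContDiff ℝ 2 ψ) (k : Fin n) : ContDiff ℝ 1 (ds k ψ) := by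
  unfold ds
  exact (((coord_contDiff k).of_le (by norm_num)).mul (hψ.of_le (by norm_num))).sub
    (contDiff_pd hψ (by norm_num) k)

theorem pd_ds {ψ : E n → ℝ} (hψ : ContDiff ℝ 2 ψ) (j k : Fin n) (z : E n) :
    pd j (ds k ψ) z = (if j = k then 1 else 0) * ψ z + z k * pd j ψ z - hess ψ z j k := by
  have h1 : Differentiable ℝ fun z : E n => z k * ψ z :=
    ((coord_contDiff k).differentiable (by norm_num)).mul (hψ.differentiable (by norm_num))
  have h2 : Differentiable ℝ (pd k ψ) :=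
    (contDiff_pd (k := 1) hψ (by norm_num) k).differentiable one_ne_zero
  unfold ds
  rw [pd_sub h1 h2, pd_mul ((coord_contDiff k).differentiable (by norm_num))
    (hψ.differentiable (by norm_num)), pd_coord]
  rfl

/-- the iterated adjoint is symmetric -/
theorem ds_ds {ψ : E n → ℝ} (hψ : ContDiff ℝ 2 ψ) (j k : Fin n) (z : E n) :
    z j * ds k ψ z - pd j (ds k ψ) z = z k * ds j ψ z - pd k (ds j ψ) z := by
  rw [pd_ds hψ, pd_ds hψ, hess_symm hψ z j k]
  unfold ds
  by_cases h : j = k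
  · subst h
    ring
  · rw [if_neg h, if_neg (Ne.symm h)]
    ring

/-- functions with compact support -/
theorem gr_test {f : E n → ℝ} (hf : Continuous f) (hs : HasCompactSupport f) : Gr f :=
  Gr.of_test hf hs

theorem ds_support {ψ : E n → ℝ} (hs : HasCompactSupport ψ) (k : Fin n) :
    HasCompactSupport (ds k ψ) := by
  unfold ds
  have h1 : HasCompactSupport fun z : E n => z k * ψ z := hs.mul_left
  have h2 : HasCompactSupport (pd k ψ) := by
    have h3 := hs.fderiv ℝ
    exact h3.comp_left (g := fun L : E n →L[ℝ] ℝ => L (ei k)) rfl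
  exact h1.sub h2

theorem pd_support {ψ : E n → ℝ} (hs : HasCompactSupport ψ) (k : Fin n) :
    HasCompactSupport (pd k ψ) := by
  have h3 := hs.fderiv ℝ
  exact h3.comp_left (g := fun L : E n →L[ℝ] ℝ => L (ei k)) rfl

theorem hess_weak {φ V : E n → ℝ} {a b M κ : ℝ} (h : BP φ V a b M κ) {ψ : E n → ℝ}
    (hψ : ContDiff ℝ 2 ψ) (hs : HasCompactSupport ψ) (i j k : Fin n) :
    Ex Q (fun z => hess φ z j i * ds k ψ z) =
      Ex Q (fun z => pd i φ z * (z j * ds k ψ z - pd j (ds k ψ) z)) := by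
  have hC : ContDiff ℝ 1 (pd i φ) := contDiff_pd h.C2 (by norm_num) i
  have hD := ds_contDiff hψ k
  have hDs := ds_support hs k
  have hDg : Gr (ds k ψ) := gr_test hD.continuous hDs
  have hPg : Gr (pd j (ds k ψ)) :=
    gr_test (contDiff_pd (k := 0) hD (by norm_num) j).continuous (pd_support hDs j)
  have hu := gr_pd_BP h i
  have e : pd j (fun z => pd i φ z * ds k ψ z) =
      fun z => hess φ z j i * ds k ψ z + pd i φ z * pd j (ds k ψ) z := by
    funext z
    rw [pd_mul (hC.differentiable one_ne_zero) (hD.differentiable one_ne_zero)]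
    rfl
  have g1 : Gr fun z => hess φ z j i * ds k ψ z := (gr_hess h j i).mul hDg
  have g2 : Gr fun z => pd i φ z * pd j (ds k ψ) z := hu.mul hPg
  have h1 := ibp (hC.mul hD) (hu.mul hDg) j (by rw [e]; exact g1.add g2)
  rw [e, Ex_add regQ g1 g2] at h1
  have e2 : (fun z => pd i φ z * (z j * ds k ψ z - pd j (ds k ψ) z)) =
      fun z => z j * (pd i φ z * ds k ψ z) - pd i φ z * pd j (ds k ψ) z := by
    funext z
    ring
  rw [e2, Ex_sub regQ ((Gr.coord j).mul (hu.mul hDg)) g2]
  linarith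

/-- **SP-EQ12** weak symmetry of the limit of the Hessians -/
theorem weak_symm (φ V : ℕ → E n → ℝ) (a b M κ : ℕ → ℝ)
    (hB : ∀ k, BP (φ k) (V k) (a k) (b k) (M k) (κ k))
    (M0 : E n → Matrix (Fin n) (Fin n) ℝ)
    (hM : Tendsto (fun k => Ex Q (fun z => fr (hess (φ k) z - M0 z))) atTop (𝓝 0))
    (hM0 : ∀ i j, Gr fun z => M0 z i j) {ψ : E n → ℝ} (hψ : ContDiff ℝ 2 ψ)
    (hs : HasCompactSupport ψ) (i j k : Fin n) :
    Ex Q (fun z => M0 z j i * ds k ψ z) = Ex Q (fun z => M0 z k i * ds j ψ z) := by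
  -- convergence of the pairing with a fixed test function
  have key : ∀ j : Fin n, ∀ w : E n → ℝ, Gr w →
      Tendsto (fun m => Ex Q (fun z => hess (φ m) z j i * w z)) atTop
        (𝓝 (Ex Q (fun z => M0 z j i * w z))) := by
    intro j w hw
    have h1 : Tendsto (fun m => Ex Q (fun z => (hess (φ m) z j i - M0 z j i) * w z)) atTop
        (𝓝 0) := by
      have h2 : ∀ m, |Ex Q (fun z => (hess (φ m) z j i - M0 z j i) * w z)| ≤
          Real.sqrt (Ex Q (fun z => fr (hess (φ m) z - M0 z)) * Ex Q (fun z => w z ^ 2)) := by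
        intro m
        have g1 : Gr fun z => hess (φ m) z j i - M0 z j i := (gr_hess (hB m) j i).sub (hM0 j i)
        refine Real.abs_le_sqrt ?_
        have h3 := Ex_sq_le_sum regQ (Finset.univ : Finset (Fin 1))
          (f := fun _ z => hess (φ m) z j i - M0 z j i) (g := fun _ => w) (fun _ _ => g1)
          (fun _ _ => hw)
        simp only [Finset.univ_unique, Finset.sum_singleton] at h3
        refine h3.trans (mul_le_mul_of_nonneg_right ?_ (Ex_nonneg _ fun z => sq_nonneg _))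
        refine Ex_mono regQ (g1.pow 2) (gr_fr fun i j => ?_) fun z => ?_
        · simp only [Matrix.sub_apply]
          exact (gr_hess (hB m) i j).sub (hM0 i j)
        · have := sq_le_fr (hess (φ m) z - M0 z) j i
          simpa only [Matrix.sub_apply] using this
      have h4 : Tendsto (fun m => Real.sqrt (Ex Q (fun z => fr (hess (φ m) z - M0 z)) *
          Ex Q (fun z => w z ^ 2))) atTop (𝓝 0) := by
        have h5 := (hM.mul_const (Ex Q (fun z => w z ^ 2))).sqrt
        rwa [zero_mul, Real.sqrt_zero] at h5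
      exact squeeze_zero_norm (fun m => by rw [Real.norm_eq_abs]; exact h2 m) h4
    have h2 : ∀ m, Ex Q (fun z => hess (φ m) z j i * w z) =
        Ex Q (fun z => (hess (φ m) z j i - M0 z j i) * w z) + Ex Q (fun z => M0 z j i * w z) := by
      intro m
      have g1 : Gr fun z => (hess (φ m) z j i - M0 z j i) * w z :=
        ((gr_hess (hB m) j i).sub (hM0 j i)).mul hw
      rw [← Ex_add regQ g1 ((hM0 j i).mul hw)]
      congr 1
      funext z
      ring
    have h3 := h1.add_const (Ex Q (fun z => M0 z j i * w z))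
    rw [zero_add] at h3
    exact h3.congr fun m => (h2 m).symm
  have hDg : ∀ k, Gr (ds k ψ) := fun k => gr_test (ds_contDiff hψ k).continuous (ds_support hs k)
  have h1 := key j (ds k ψ) (hDg k)
  have h2 := key k (ds j ψ) (hDg j)
  refine tendsto_nhds_unique h1 (h2.congr fun m => ?_)
  rw [hess_weak (hB m) hψ hs, hess_weak (hB m) hψ hs]
  congr 1
  funext z
  rw [ds_ds hψ j k]

end Vale.Agent.P254.SP567
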