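import Vale.Agent.P254.SP.IfaceA
import Vale.Agent.P254.SP.H620.DK
import Vale.Agent.P254.S.H151.Main
import Vale.Agent.P254.S.H129.Herm
import Vale.Agent.P254.Bdl.B11

/-!
P254, block SP, row SP-EQ12 (helper567): the limits of the equality case.

`lim12` : if `G_k - ∑ x_c A_{k,c} → 0` in `L²(γ)` and `∑ A_{k,c}² → 1`, then along a subsequence
`A_{k,c} → A_c`, `∑ A_c² = 1`, `G_k → ∑ x_c A_c` and `D²φ_k → t'(∑ x_c A_c)` in `L²(γ)`.
`weak_symm` : the limit of the Hessians is weakly symmetric in the derivative.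
`grad_lim` : the maps converge in `L²(γ)` up to constants.
-/

set_option autoImplicit false
set_option linter.all false

open MeasureTheory Matrix Filter Topology

namespace Vale.Agent.P254.SP567

open Vale.Agent.P227.M Vale.Agent.P254.S Vale.Agent.P254.SP Vale.Agent.P254.SP620

variable {n : ℕ}

/-! ### tools -/

theorem regQ : Reg (Q : E n → ℝ) 1 1 := S151.regQ

theorem gr_of_lip {f : E n → ℝ} {K : ℝ} (h : ∀ x y, |f x - f y| ≤ K * ‖x - y‖) : Gr f := by
  have hK : LipschitzWith (Real.toNNReal |K|) f := by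
    refine LipschitzWith.of_dist_le_mul fun x y => ?_
    rw [Real.dist_eq, dist_eq_norm, Real.coe_toNNReal _ (abs_nonneg _)]
    exact (h x y).trans (mul_le_mul_of_nonneg_right (le_abs_self _) (norm_nonneg _))
  refine ⟨hK.continuous, |f 0| + |K|, 1, by positivity, fun x => ?_⟩
  have h1 := h x 0
  rw [sub_zero] at h1
  have h2 : |f x| ≤ |f 0| + |f x - f 0| := by
    calc |f x| = |f 0 + (f x - f 0)| := by rw [add_sub_cancel]
      _ ≤ _ := abs_add_le _ _
  have h3 : K * ‖x‖ ≤ |K| * ‖x‖ := mul_le_mul_of_nonneg_right (le_abs_self _) (norm_nonneg _)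
  have h4 := norm_nonneg x
  have h5 := abs_nonneg (f 0)
  have h6 := abs_nonneg K
  rw [pow_one]
  nlinarith [mul_nonneg h5 h4]

theorem gr_fr {X : E n → Matrix (Fin n) (Fin n) ℝ} (h : ∀ i j, Gr fun z => X z i j) :
    Gr fun z => fr (X z) := by
  unfold fr
  exact Gr.sum _ fun i _ => Gr.sum _ fun j _ => (h i j).pow 2

theorem fr_add_le (X Y : Matrix (Fin n) (Fin n) ℝ) : fr (X + Y) ≤ 2 * fr X + 2 * fr Y := by
  unfold fr
  rw [Finset.mul_sum, Finset.mul_sum, ← Finset.sum_add_distrib]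
  refine Finset.sum_le_sum fun i _ => ?_
  rw [Finset.mul_sum, Finset.mul_sum, ← Finset.sum_add_distrib]
  refine Finset.sum_le_sum fun j _ => ?_
  rw [Matrix.add_apply]
  nlinarith [sq_nonneg (X i j - Y i j)]

theorem fr_eq_zero {X : Matrix (Fin n) (Fin n) ℝ} (h : fr X = 0) : X = 0 := by
  ext i j
  have h1 := sq_le_fr X i j
  rw [h] at h1
  have h2 : X i j ^ 2 = 0 := le_antisymm h1 (sq_nonneg _)
  simpa using h2

theorem fr_neg (X : Matrix (Fin n) (Fin n) ℝ) : fr (-X) = fr X := by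
  unfold fr
  simp

theorem fr_zero : fr (0 : Matrix (Fin n) (Fin n) ℝ) = 0 := by
  unfold fr
  simp

/-- linear combination of matrices -/
noncomputable def lc (A : Fin n → Matrix (Fin n) (Fin n) ℝ) (z : E n) : Matrix (Fin n) (Fin n) ℝ :=
  ∑ c, z c • A c

theorem lc_apply (A : Fin n → Matrix (Fin n) (Fin n) ℝ) (z : E n) (i j : Fin n) :
    lc A z i j = ∑ c, z c * A c i j := by
  unfold lc
  rw [Matrix.sum_apply]
  rfl

theorem lc_symm {A : Fin n → Matrix (Fin n) (Fin n) ℝ} (hA : ∀ c, (A c)ᵀ = A c) (z : E n) :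
    (lc A z)ᵀ = lc A z := by
  unfold lc
  rw [transpose_sum]
  refine Finset.sum_congr rfl fun c _ => ?_
  rw [transpose_smul, hA c]

theorem gr_lc (A : Fin n → Matrix (Fin n) (Fin n) ℝ) (i j : Fin n) : Gr fun z => lc A z i j := by
  simp only [lc_apply]
  refine Gr.sum _ fun c _ => ?_
  simpa only [mul_comm] using (Gr.coord (n := n) c).const_mul (A c i j)

theorem fr_lc_le (A : Fin n → Matrix (Fin n) (Fin n) ℝ) (z : E n) :
    fr (lc A z) ≤ (∑ c, z c ^ 2) * ∑ c, fr (A c) := by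
  unfold fr
  have h1 : ∀ i j, lc A z i j ^ 2 ≤ (∑ c, z c ^ 2) * ∑ c, A c i j ^ 2 := fun i j => by
    rw [lc_apply]
    exact Finset.sum_mul_sq_le_sq_mul_sq _ _ _
  calc ∑ i, ∑ j, lc A z i j ^ 2 ≤ ∑ i, ∑ j, (∑ c, z c ^ 2) * ∑ c, A c i j ^ 2 :=
        Finset.sum_le_sum fun i _ => Finset.sum_le_sum fun j _ => h1 i j
    _ = (∑ c, z c ^ 2) * ∑ c, ∑ i, ∑ j, A c i j ^ 2 := by
        simp only [← Finset.mul_sum]
        congr 1
        rw [Finset.sum_comm]
        have : ∀ i, ∑ j, ∑ c, A c i j ^ 2 = ∑ c, ∑ j, A c i j ^ 2 := fun i => Finset.sum_comm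
        rw [Finset.sum_comm]
        simp only [this]
        rw [Finset.sum_comm]

theorem lc_sub (A B : Fin n → Matrix (Fin n) (Fin n) ℝ) (z : E n) :
    lc A z - lc B z = lc (fun c => A c - B c) z := by
  ext i j
  rw [Matrix.sub_apply, lc_apply, lc_apply, lc_apply, ← Finset.sum_sub_distrib]
  refine Finset.sum_congr rfl fun c _ => ?_
  rw [Matrix.sub_apply]
  ring

theorem lc_sub_pt (A : Fin n → Matrix (Fin n) (Fin n) ℝ) (z w : E n) :
    lc A z - lc A w = lc A (z - w) := by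
  ext i j
  rw [Matrix.sub_apply, lc_apply, lc_apply, lc_apply, ← Finset.sum_sub_distrib]
  refine Finset.sum_congr rfl fun c _ => ?_
  rw [PiLp.sub_apply]
  ring

theorem sum_sq_eq (z : E n) : ∑ c, z c ^ 2 = ‖z‖ ^ 2 := by
  rw [EuclideanSpace.norm_sq_eq]
  exact Finset.sum_congr rfl fun c _ => by rw [Real.norm_eq_abs, sq_abs]

/-- the field `F(∑ z_c A_c)` for a Lipschitz function `F` -/
theorem mf_lc_lip {A : Fin n → Matrix (Fin n) (Fin n) ℝ} (hA : ∀ c, (A c)ᵀ = A c) {F : ℝ → ℝ}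
    (hF : ∀ x y, |F x - F y| ≤ |x - y|) (z w : E n) :
    fr (mf F (lc A z) - mf F (lc A w)) ≤ (∑ c, fr (A c)) * ‖z - w‖ ^ 2 := by
  obtain ⟨U, m, h1⟩ := exists_dec (lc_symm hA z)
  obtain ⟨V, m', h2⟩ := exists_dec (lc_symm hA w)
  have h := mf_lip h1 h2 (F := F) (L := 1) fun i j => by rw [one_mul]; exact hF _ _
  rw [one_pow, one_mul] at h
  refine h.trans ?_
  rw [lc_sub_pt]
  refine (fr_lc_le A _).trans ?_
  rw [sum_sq_eq, mul_comm]

theorem gr_mf_lc {A : Fin n → Matrix (Fin n) (Fin n) ℝ} (hA : ∀ c, (A c)ᵀ = A c) {F : ℝ → ℝ}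
    (hF : ∀ x y, |F x - F y| ≤ |x - y|) (i j : Fin n) : Gr fun z => mf F (lc A z) i j := by
  refine gr_of_lip (K := Real.sqrt (∑ c, fr (A c))) fun z w => ?_
  have h := mf_lc_lip hA hF z w
  have h0 : 0 ≤ ∑ c, fr (A c) := Finset.sum_nonneg fun c _ => fr_nonneg _
  have h2 : |(mf F (lc A z) - mf F (lc A w)) i j| ≤ Real.sqrt (∑ c, fr (A c)) * ‖z - w‖ := by
    refine entry_le (by positivity) ?_ i j
    rw [mul_pow, Real.sq_sqrt h0]
    exact h
  simpa only [Matrix.sub_apply] using h2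

/-! ### the field `G` -/

section field

variable {P : F1} {φ V : E n → ℝ} {a b M κ : ℝ} {U : E n → Matrix (Fin n) (Fin n) ℝ}
  {s : E n → Fin n → ℝ}

theorem dec_GG (hF : Fr P φ U s) (z : E n) : Dec (GG U s z) (U z) (s z) :=
  ⟨mul_eq_one_comm.1 (hF.orth z), rfl⟩

theorem hess_mf (hF : Fr P φ U s) (z : E n) : hess φ z = mf P.L (GG U s z) := by
  rw [(dec_GG hF z).mf_eq, hF.dec z]
  rfl

theorem dec_hess (hF : Fr P φ U s) (z : E n) : Dec (hess φ z) (U z) (fun i => P.L (s z i)) :=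
  ⟨mul_eq_one_comm.1 (hF.orth z), hF.dec z⟩

theorem GG_mf (hF : Fr P φ U s) (z : E n) : GG U s z = mf P.g (hess φ z) := by
  rw [(dec_hess hF z).mf_eq]
  unfold GG fc
  simp only [P.g_L]

theorem g_cont (P : F1) : ContinuousOn P.g (Set.Ioi 0) :=
  P.g_concave.continuousOn isOpen_Ioi

theorem gr_GG (h : BP φ V a b M κ) (hF : Fr P φ U s) (i j : Fin n) :
    Gr fun z => GG U s z i j := by
  obtain ⟨U', m', hs⟩ := S151.exists_SF h
  have hg : ContinuousOn P.g (Set.Icc a b) :=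
    (g_cont P).mono fun x hx => lt_of_lt_of_le h.a_pos hx.1
  have e : (fun z => GG U s z i j) = fun z => S151.fm (U' z) (m' z) P.g i j := by
    funext z
    have hd : Dec (hess φ z) (U' z) (m' z) := ⟨hs.o2 z, hs.dec z⟩
    rw [GG_mf hF, hd.mf_eq]
    rfl
  rw [e]
  obtain ⟨B, hB⟩ := isCompact_Icc.exists_bound_of_continuousOn hg
  refine Gr.of_bound (hs.cont h hg i j) (B := B) fun z => ?_
  exact S151.abs_fm_le (hs.o1 z) (fun k => hB _ (hs.rng z k)) i j

theorem gr_hess (h : BP φ V a b M κ) (i j : Fin n) : Gr fun z => hess φ z i j :=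
  gr_of_lip (h.lip i j)

end field

/-! ### compactness -/

theorem entry_bound {A : Fin n → Matrix (Fin n) (Fin n) ℝ} (hA : ∀ c, (A c)ᵀ = A c)
    (h : fr (∑ c, A c * A c - 1) ≤ 1) (c i j : Fin n) : |A c i j| ≤ 2 := by
  have h1 := sq_le_fr (∑ c, A c * A c - 1) i i
  have h2 : (∑ c, A c * A c) i i - 1 ≤ 1 := by
    have h3 : ((∑ c, A c * A c - 1 : Matrix (Fin n) (Fin n) ℝ) i i) ^ 2 ≤ 1 := h1.trans h
    rw [Matrix.sub_apply, one_apply_eq] at h3
    nlinarith
  have h3 : (∑ c, A c * A c) i i = ∑ c, ∑ j, A c i j ^ 2 := by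
    rw [Matrix.sum_apply]
    refine Finset.sum_congr rfl fun c _ => ?_
    rw [Matrix.mul_apply]
    refine Finset.sum_congr rfl fun j _ => ?_
    have h4 : A c j i = A c i j := by
      conv_lhs => rw [← hA c]
      rfl
    rw [h4, sq]
  have h4 : A c i j ^ 2 ≤ ∑ c, ∑ j, A c i j ^ 2 := by
    calc A c i j ^ 2 ≤ ∑ j, A c i j ^ 2 :=
          Finset.single_le_sum (f := fun j => A c i j ^ 2) (fun _ _ => sq_nonneg _)
            (Finset.mem_univ j)
      _ ≤ _ := Finset.single_le_sum (f := fun c => ∑ j, A c i j ^ 2)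
          (fun _ _ => Finset.sum_nonneg fun _ _ => sq_nonneg _) (Finset.mem_univ c)
  refine abs_le_of_sq_le_sq ?_ (by norm_num)
  linarith

theorem tendsto_of_min {x ρ : ℕ → ℝ} (hx : ∀ k, 0 ≤ x k) (hρ : Tendsto ρ atTop (𝓝 0))
    (h : ∀ k, min 1 (x k) ≤ ρ k) : Tendsto x atTop (𝓝 0) := by
  have h1 : ∀ᶠ k in atTop, ρ k < 1 := hρ.eventually (gt_mem_nhds one_pos)
  refine squeeze_zero' (Eventually.of_forall hx) (h1.mono fun k hk => ?_) hρ
  have h2 := h k
  rcases le_total 1 (x k) with h3 | h3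
  · rw [min_eq_left h3] at h2
    linarith
  · rwa [min_eq_right h3] at h2

theorem continuous_frK : Continuous fun A : Fin n → Matrix (Fin n) (Fin n) ℝ =>
    fr (∑ c, A c * A c - 1) := by
  unfold fr
  fun_prop

theorem exists_lim (A : ℕ → Fin n → Matrix (Fin n) (Fin n) ℝ) (hA : ∀ k c, (A k c)ᵀ = A k c)
    (h : Tendsto (fun k => fr (∑ c, A k c * A k c - 1)) atTop (𝓝 0)) :
    ∃ (sub : ℕ → ℕ) (A0 : Fin n → Matrix (Fin n) (Fin n) ℝ), StrictMono sub ∧
      (∀ c, (A0 c)ᵀ = A0 c) ∧ ∑ c, A0 c * A0 c = 1 ∧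
      Tendsto (fun k => A (sub k)) atTop (𝓝 A0) := by
  have h1 : ∀ᶠ k in atTop, fr (∑ c, A k c * A k c - 1) < 1 := h.eventually (gt_mem_nhds one_pos)
  set K : Set (Fin n → Matrix (Fin n) (Fin n) ℝ) :=
    Set.pi Set.univ fun _ => Set.pi Set.univ fun _ => Set.pi Set.univ fun _ => Set.Icc (-2) 2
    with hK
  have hKc : IsCompact K :=
    isCompact_univ_pi fun _ => isCompact_univ_pi fun _ => isCompact_univ_pi fun _ => isCompact_Icc
  have h2 : ∃ᶠ k in atTop, A k ∈ K := by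
    refine (h1.mono fun k hk => ?_).frequently
    intro c _ i _ j _
    exact abs_le.1 (entry_bound (hA k) hk.le c i j)
  haveI : FirstCountableTopology (Fin n → Matrix (Fin n) (Fin n) ℝ) :=
    inferInstanceAs (FirstCountableTopology (Fin n → Fin n → Fin n → ℝ))
  obtain ⟨A0, _, sub, hsub, hlim⟩ := hKc.tendsto_subseq' h2
  have hlim' : Tendsto (fun k => A (sub k)) atTop (𝓝 A0) := hlim
  refine ⟨sub, A0, hsub, ?_, ?_, hlim'⟩
  · intro c
    have h3 : Tendsto (fun k => A (sub k) c) atTop (𝓝 (A0 c)) :=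
      (continuous_apply c).continuousAt.tendsto.comp hlim'
    have h4 : Tendsto (fun k => (A (sub k) c)ᵀ) atTop (𝓝 (A0 c)ᵀ) :=
      (continuous_id.matrix_transpose.tendsto (A0 c)).comp h3
    simp only [hA] at h4
    exact tendsto_nhds_unique h4 h3
  · have h3 : Tendsto (fun k => fr (∑ c, A (sub k) c * A (sub k) c - 1)) atTop
        (𝓝 (fr (∑ c, A0 c * A0 c - 1))) :=
      (continuous_frK.tendsto A0).comp hlim'
    have h4 := h.comp hsub.tendsto_atTop
    exact sub_eq_zero.1 (fr_eq_zero (tendsto_nhds_unique h3 h4))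

/-- `A_{k,c} → A_c` gives `∑ x_c A_{k,c} → ∑ x_c A_c` in `L²(γ)` -/
theorem lc_lim {A : ℕ → Fin n → Matrix (Fin n) (Fin n) ℝ} {A0 : Fin n → Matrix (Fin n) (Fin n) ℝ}
    (h : Tendsto A atTop (𝓝 A0)) :
    Tendsto (fun k => Ex Q (fun z => fr (lc (A k) z - lc A0 z))) atTop (𝓝 0) := by
  have hgz : Gr fun z : E n => ∑ c, z c ^ 2 := Gr.sum _ fun c _ => (Gr.coord c).pow 2
  have h1 : ∀ k, Ex Q (fun z => fr (lc (A k) z - lc A0 z)) ≤
      (∑ c, fr (A k c - A0 c)) * Ex Q (fun z : E n => ∑ c, z c ^ 2) := fun k => by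
    rw [← Ex_const_mul]
    refine Ex_mono regQ (gr_fr fun i j => ?_) (hgz.const_mul _) fun z => ?_
    · simp only [Matrix.sub_apply]
      exact (gr_lc _ i j).sub (gr_lc _ i j)
    · rw [lc_sub, mul_comm]
      exact fr_lc_le _ z
  have h2 : Tendsto (fun k => ∑ c, fr (A k c - A0 c)) atTop (𝓝 0) := by
    have hc : Continuous fun X : Fin n → Matrix (Fin n) (Fin n) ℝ => ∑ c, fr (X c - A0 c) := by
      unfold fr
      fun_prop
    have h3 := (hc.tendsto A0).comp h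
    have e : (∑ c, fr (A0 c - A0 c)) = 0 := by
      simp [fr_zero]
    rw [e] at h3
    exact h3
  have h3 := h2.mul_const (Ex Q (fun z : E n => ∑ c, z c ^ 2))
  rw [zero_mul] at h3
  exact squeeze_zero (fun k => Ex_nonneg _ fun z => fr_nonneg _) h1 h3

/-- **SP-EQ12** -/
theorem lim12 (P : F1) (hL : ∀ x y, |P.L x - P.L y| ≤ |x - y|)
    (φ V : ℕ → E n → ℝ) (a b M κ : ℕ → ℝ) (hB : ∀ k, BP (φ k) (V k) (a k) (b k) (M k) (κ k))
    (U : ℕ → E n → Matrix (Fin n) (Fin n) ℝ) (s : ℕ → E n → Fin n → ℝ)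
    (hF : ∀ k, Fr P (φ k) (U k) (s k))
    (A : ℕ → Fin n → Matrix (Fin n) (Fin n) ℝ) (hA : ∀ k c, (A k c)ᵀ = A k c)
    (ρ : ℕ → ℝ) (hρ : Tendsto ρ atTop (𝓝 0))
    (h1 : ∀ k, Ex Q (fun z => fr (GG (U k) (s k) z - lc (A k) z)) ≤ ρ k)
    (h2 : ∀ k, min 1 (fr (∑ c, A k c * A k c - 1)) ≤ ρ k) :
    ∃ (sub : ℕ → ℕ) (A0 : Fin n → Matrix (Fin n) (Fin n) ℝ), StrictMono sub ∧
      (∀ c, (A0 c)ᵀ = A0 c) ∧ ∑ c, A0 c * A0 c = 1 ∧
      Tendsto (fun k => A (sub k)) atTop (𝓝 A0) ∧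
      Tendsto (fun k => Ex Q (fun z => fr (GG (U (sub k)) (s (sub k)) z - lc A0 z))) atTop (𝓝 0) ∧
      Tendsto (fun k => Ex Q (fun z => fr (hess (φ (sub k)) z - mf P.L (lc A0 z)))) atTop (𝓝 0) := by
  have h3 := tendsto_of_min (fun k => fr_nonneg (∑ c, A k c * A k c - 1)) hρ h2
  obtain ⟨sub, A0, hsub, hA0, hK, hlim⟩ := exists_lim A hA h3
  have h4 := lc_lim hlim
  have h5 : Tendsto (fun k => Ex Q (fun z => fr (GG (U (sub k)) (s (sub k)) z - lc A0 z))) atTop
      (𝓝 0) := by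
    have h6 : ∀ k, Ex Q (fun z => fr (GG (U (sub k)) (s (sub k)) z - lc A0 z)) ≤
        2 * ρ (sub k) + 2 * Ex Q (fun z => fr (lc (A (sub k)) z - lc A0 z)) := fun k => by
      have g1 : Gr fun z => fr (GG (U (sub k)) (s (sub k)) z - lc (A (sub k)) z) :=
        gr_fr fun i j => by
          simp only [Matrix.sub_apply]
          exact (gr_GG (hB _) (hF _) i j).sub (gr_lc _ i j)
      have g2 : Gr fun z => fr (lc (A (sub k)) z - lc A0 z) :=
        gr_fr fun i j => by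
          simp only [Matrix.sub_apply]
          exact (gr_lc _ i j).sub (gr_lc _ i j)
      have g3 : Gr fun z => fr (GG (U (sub k)) (s (sub k)) z - lc A0 z) :=
        gr_fr fun i j => by
          simp only [Matrix.sub_apply]
          exact (gr_GG (hB _) (hF _) i j).sub (gr_lc _ i j)
      have h7 : Ex Q (fun z => fr (GG (U (sub k)) (s (sub k)) z - lc A0 z)) ≤
          Ex Q (fun z => 2 * fr (GG (U (sub k)) (s (sub k)) z - lc (A (sub k)) z) +
            2 * fr (lc (A (sub k)) z - lc A0 z)) := by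
        refine Ex_mono regQ g3 ((g1.const_mul 2).add (g2.const_mul 2)) fun z => ?_
        have h8 := fr_add_le (GG (U (sub k)) (s (sub k)) z - lc (A (sub k)) z)
          (lc (A (sub k)) z - lc A0 z)
        rwa [sub_add_sub_cancel] at h8
      rw [Ex_add regQ (g1.const_mul 2) (g2.const_mul 2), Ex_const_mul, Ex_const_mul] at h7
      have h8 := h1 (sub k)
      linarith
    have h7 : Tendsto (fun k => 2 * ρ (sub k) +
        2 * Ex Q (fun z => fr (lc (A (sub k)) z - lc A0 z))) atTop (𝓝 0) := by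
      have := ((hρ.comp hsub.tendsto_atTop).const_mul 2).add (h4.const_mul 2)
      simpa using this
    exact squeeze_zero (fun k => Ex_nonneg _ fun z => fr_nonneg _) h6 h7
  refine ⟨sub, A0, hsub, hA0, hK, hlim, h5, ?_⟩
  refine squeeze_zero (fun k => Ex_nonneg _ fun z => fr_nonneg _) (fun k => ?_) h5
  refine Ex_mono regQ ?_ ?_ fun z => ?_
  · refine gr_fr fun i j => ?_
    simp only [Matrix.sub_apply]
    exact (gr_hess (hB _) i j).sub (gr_mf_lc hA0 hL i j)
  · refine gr_fr fun i j => ?_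
    simp only [Matrix.sub_apply]
    exact (gr_GG (hB _) (hF _) i j).sub (gr_lc _ i j)
  · obtain ⟨U', m', hd⟩ := exists_dec (lc_symm hA0 z)
    rw [hess_mf (hF _)]
    have h := mf_lip (dec_GG (hF (sub k)) z) hd (F := P.L) (L := 1) fun i j => by
      rw [one_mul]
      exact hL _ _
    rwa [one_pow, one_mul] at h

end Vale.Agent.P254.SP567
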