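import Vale.Agent.P254.SP.H567.Grad
import Vale.Agent.P254.SP.H372.EqGlue
import Vale.Agent.P254.SP.H72.Iface

/-!
P254, line (SP_0), equality case (helper567): `stmtLim (P : F1) : E72.StmtLim P`, the limit theorem
in Gauss space.
-/

set_option autoImplicit false
set_option linter.all false

open MeasureTheory ProbabilityTheory Matrix Filter Topology Set

namespace Vale.Agent.P254.SP567

open Vale.Agent.P227.M Vale.Agent.P254.S Vale.Agent.P254.SP Vale.Agent.P254.SP620

variable {n : ℕ}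

/-! ### one-variable facts -/

theorem t_eq (P : F1) (s : ℝ) : P.t s = P.r s * P.L s := (P.r_eq s).symm

theorem r_pos (P : F1) (s : ℝ) : 0 < P.r s := by
  have h1 := P.r_eq s
  have h2 := P.L_pos s
  have h3 := P.t_pos s
  by_contra h
  push Not at h
  nlinarith [mul_nonneg (neg_nonneg.2 h) h2.le]

theorem L'_lt_one (P : F1) (s : ℝ) : P.L' s < 1 := by
  have h0 := H372.L'_eq P s
  have h1 := P.L'_pos s
  have h2 := P.L_pos s
  have hr := r_pos P s
  have hδ : 0 < P.L s - s := by
    rw [h0] at h1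
    exact (mul_pos_iff_of_pos_left h2).1 h1
  have h3 : P.r' s = 1 - P.r s * (P.L s - s) := by
    have e1 := P.model1 s
    have e2 := t_eq P s
    linarith
  have h4 : P.r s * (P.L s - s) < 1 := by
    have := P.r'_pos s
    linarith
  have h5 : (P.L s - s) < P.r s * (1 - s * (P.L s - s)) := by
    have e1 := P.model2 s
    have e2 := P.r''_pos s
    rw [h3] at e1
    nlinarith
  have h6 : P.r s * (P.L s - s) ^ 2 < P.r s * (1 - s * (P.L s - s)) := by
    refine lt_trans ?_ h5
    nlinarith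
  have h7 : (P.L s - s) ^ 2 < 1 - s * (P.L s - s) := lt_of_mul_lt_mul_left h6 hr.le
  rw [h0]
  nlinarith

theorem lip_of_deriv {F F' : ℝ → ℝ} (hF : ∀ s, HasDerivAt F (F' s) s) {c : ℝ}
    (hF' : ∀ s, |F' s| ≤ c) (x y : ℝ) : |F x - F y| ≤ c * |x - y| := by
  have h := convex_univ.norm_image_sub_le_of_norm_hasDerivWithin_le (f := F) (f' := F')
    (s := Set.univ) (C := c) (x := y) (y := x) (fun x _ => (hF x).hasDerivWithinAt)
    (fun x _ => by rw [Real.norm_eq_abs]; exact hF' x) (Set.mem_univ _) (Set.mem_univ _)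
  simpa only [Real.norm_eq_abs] using h

theorem L_lip (P : F1) (x y : ℝ) : |P.L x - P.L y| ≤ |x - y| := by
  have h := lip_of_deriv P.hL (c := 1) (fun s => by
    rw [abs_of_pos (P.L'_pos s)]
    exact (L'_lt_one P s).le) x y
  rwa [one_mul] at h

theorem r_lip (P : F1) (x y : ℝ) : |P.r x - P.r y| ≤ 1 / 2 * |x - y| :=
  lip_of_deriv P.hr (fun s => by
    rw [abs_of_pos (P.r'_pos s)]
    exact (P.r'_lt s).le) x y

/-! ### functions of one linear form -/

/-- linear form -/
def lf (o : Fin n → ℝ) (z : E n) : ℝ := ∑ j, o j * z j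

theorem lf_hasFD (o : Fin n → ℝ) (z : E n) :
    HasFDerivAt (lf o) (∑ j, o j • (EuclideanSpace.proj j : E n →L[ℝ] ℝ)) z := by
  unfold lf
  exact HasFDerivAt.fun_sum fun j _ =>
    ((EuclideanSpace.proj j : E n →L[ℝ] ℝ).hasFDerivAt (x := z)).const_mul (o j)

theorem lf_contDiff (o : Fin n → ℝ) : ContDiff ℝ 1 (lf o) := by
  unfold lf
  exact ContDiff.sum fun j _ => contDiff_const.mul ((coord_contDiff j).of_le (by norm_num))

theorem lf_lip (o : Fin n → ℝ) (z w : E n) :
    |lf o z - lf o w| ≤ Real.sqrt (∑ j, o j ^ 2) * ‖z - w‖ := by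
  have h1 : lf o z - lf o w = ∑ j, o j * (z - w) j := by
    unfold lf
    rw [← Finset.sum_sub_distrib]
    refine Finset.sum_congr rfl fun j _ => ?_
    rw [PiLp.sub_apply]
    ring
  have h2 : (∑ j, o j * (z - w) j) ^ 2 ≤ (Real.sqrt (∑ j, o j ^ 2) * ‖z - w‖) ^ 2 := by
    rw [mul_pow, Real.sq_sqrt (Finset.sum_nonneg fun _ _ => sq_nonneg _), ← sum_sq_eq]
    exact Finset.sum_mul_sq_le_sq_mul_sq _ _ _
  rw [h1]
  exact abs_le_of_sq_le_sq h2 (by positivity)

theorem pd_lf {F F' : ℝ → ℝ} (hF : ∀ s, HasDerivAt F (F' s) s) (o : Fin n → ℝ) (k : Fin n)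
    (z : E n) : pd k (fun z => F (lf o z)) z = F' (lf o z) * o k := by
  have h : HasFDerivAt (fun z => F (lf o z))
      (F' (lf o z) • ∑ j, o j • (EuclideanSpace.proj j : E n →L[ℝ] ℝ)) z :=
    (hF (lf o z)).comp_hasFDerivAt z (lf_hasFD o z)
  unfold pd
  rw [h.fderiv]
  simp only [_root_.smul_apply, smul_eq_mul, ContinuousLinearMap.sum_apply]
  congr 1
  unfold ei
  rw [Finset.sum_eq_single k]
  · simp
  · intro j _ hj
    simp [EuclideanSpace.single_apply, hj]
  · simp

theorem comp_contDiff {F F' : ℝ → ℝ} (hF : ∀ s, HasDerivAt F (F' s) s) (hc : Continuous F')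
    (o : Fin n → ℝ) : ContDiff ℝ 1 fun z => F (lf o z) := by
  have h : ContDiff ℝ 1 F := by
    rw [contDiff_one_iff_deriv]
    refine ⟨fun s => (hF s).differentiableAt, ?_⟩
    have : deriv F = F' := funext fun s => (hF s).deriv
    rwa [this]
  exact h.comp (lf_contDiff o)

theorem gr_comp_lip {F : ℝ → ℝ} {c : ℝ} (hc : 0 ≤ c) (hF : ∀ x y, |F x - F y| ≤ c * |x - y|)
    (o : Fin n → ℝ) : Gr fun z => F (lf o z) := by
  refine gr_of_lip (K := c * Real.sqrt (∑ j, o j ^ 2)) fun z w => ?_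
  refine (hF _ _).trans ?_
  rw [mul_assoc]
  exact mul_le_mul_of_nonneg_left (lf_lip o z w) hc

theorem gr_L (P : F1) (o : Fin n → ℝ) : Gr fun z => P.L (lf o z) :=
  gr_comp_lip (c := 1) zero_le_one (fun x y => by rw [one_mul]; exact L_lip P x y) o

theorem gr_r (P : F1) (o : Fin n → ℝ) : Gr fun z => P.r (lf o z) :=
  gr_comp_lip (by norm_num) (r_lip P) o

theorem gr_t (P : F1) (o : Fin n → ℝ) : Gr fun z => P.t (lf o z) := by
  have h := (gr_r P o).mul (gr_L P o)
  have e : (fun z => P.t (lf o z)) = fun z => P.r (lf o z) * P.L (lf o z) :=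
    funext fun z => t_eq P _
  rw [e]
  exact h

theorem cont_L (P : F1) : Continuous P.L :=
  continuous_iff_continuousAt.2 fun s => (P.hL s).continuousAt

theorem cont_r' (P : F1) : Continuous P.r' :=
  continuous_iff_continuousAt.2 fun s => (P.hr' s).continuousAt

theorem gr_r' (P : F1) (o : Fin n → ℝ) : Gr fun z => P.r' (lf o z) := by
  refine Gr.of_bound ((cont_r' P).comp (lf_contDiff o).continuous) (B := 1 / 2) fun z => ?_
  rw [abs_of_pos (P.r'_pos _)]
  exact (P.r'_lt _).le

theorem gr_lf (o : Fin n → ℝ) : Gr (lf o) := by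
  unfold lf
  exact Gr.sum _ fun j _ => (Gr.coord j).const_mul (o j)

/-- `E t(⟨o,z⟩) = 1` for a unit vector `o` -/
theorem Ex_t (P : F1) {o : Fin n → ℝ} (ho : ∑ j, o j ^ 2 = 1) :
    Ex Q (fun z => P.t (lf o z)) = 1 := by
  have hpd : ∀ j, pd j (fun z => P.r (lf o z)) = fun z => P.r' (lf o z) * o j := fun j =>
    funext fun z => pd_lf P.hr o j z
  have h1 : ∀ j, Ex Q (fun z => z j * P.r (lf o z)) = Ex Q (fun z => P.r' (lf o z) * o j) := by
    intro j
    have hg : Gr (pd j fun z : E n => P.r (lf o z)) := by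
      rw [hpd]
      simpa only [mul_comm] using (gr_r' P o).const_mul (o j)
    have h := ibp (comp_contDiff P.hr (cont_r' P) o) (gr_r P o) j hg
    rw [hpd] at h
    exact h
  have h2 : Ex Q (fun z => lf o z * P.r (lf o z)) = Ex Q (fun z => P.r' (lf o z)) := by
    have e1 : (fun z => lf o z * P.r (lf o z)) = fun z => ∑ j, o j * (z j * P.r (lf o z)) := by
      funext z
      unfold lf
      rw [Finset.sum_mul]
      exact Finset.sum_congr rfl fun j _ => by ring
    rw [e1, Ex_sum regQ _ fun j _ => ((Gr.coord j).mul (gr_r P o)).const_mul (o j)]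
    have e2 : ∀ j, Ex Q (fun z => o j * (z j * P.r (lf o z))) =
        o j ^ 2 * Ex Q (fun z => P.r' (lf o z)) := by
      intro j
      rw [Ex_const_mul, h1 j]
      have e3 : (fun z => P.r' (lf o z) * o j) = fun z => o j * P.r' (lf o z) :=
        funext fun z => mul_comm _ _
      rw [e3, Ex_const_mul]
      ring
    simp only [e2]
    rw [← Finset.sum_mul, ho, one_mul]
  have e : (fun z : E n => P.t (lf o z)) = fun z =>
      (lf o z * P.r (lf o z) - P.r' (lf o z)) + 1 := by
    funext z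
    have := P.model1 (lf o z)
    linarith
  rw [e, Ex_add regQ (((gr_lf o).mul (gr_r P o)).sub (gr_r' P o)) (Gr.const 1),
    Ex_sub regQ ((gr_lf o).mul (gr_r P o)) (gr_r' P o), h2, Ex_const regQ]
  ring

/-! ### the statement -/

theorem GG_symm {P : F1} {φ : E n → ℝ} {U : E n → Matrix (Fin n) (Fin n) ℝ}
    {s : E n → Fin n → ℝ} (hF : Fr P φ U s) (z : E n) (i j : Fin n) :
    GG U s z i j = GG U s z j i := by
  have h := (dec_GG hF z).symm
  conv_lhs => rw [← h]
  rfl

theorem A1_symm {P : F1} {φ : E n → ℝ} {U : E n → Matrix (Fin n) (Fin n) ℝ}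
    {s : E n → Fin n → ℝ} (hF : Fr P φ U s) (c : Fin n) : (E72.A1 U s c)ᵀ = E72.A1 U s c := by
  ext i j
  show Ex Q (fun z => z c * GG U s z j i) = Ex Q (fun z => z c * GG U s z i j)
  congr 1
  funext z
  rw [GG_symm hF z i j]

theorem nlin_eq (U : E n → Matrix (Fin n) (Fin n) ℝ) (s : E n → Fin n → ℝ) :
    E72.nlin U s = Ex Q (fun z => fr (GG U s z - lc (E72.A1 U s) z)) := by
  unfold E72.nlin fr
  congr 1
  funext z
  refine Finset.sum_congr rfl fun i _ => Finset.sum_congr rfl fun j _ => ?_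
  rw [Matrix.sub_apply, lc_apply]

theorem dfK_eq (U : E n → Matrix (Fin n) (Fin n) ℝ) (s : E n → Fin n → ℝ) :
    E72.dfK U s = fr (∑ c, E72.A1 U s c * E72.A1 U s c - 1) := by
  unfold E72.dfK fr
  refine Finset.sum_congr rfl fun i _ => Finset.sum_congr rfl fun j _ => ?_
  rw [Matrix.sub_apply]

theorem nlin_nonneg (U : E n → Matrix (Fin n) (Fin n) ℝ) (s : E n → Fin n → ℝ) :
    0 ≤ E72.nlin U s := by
  rw [nlin_eq]
  exact Ex_nonneg _ fun z => fr_nonneg _

theorem dfK_nonneg (U : E n → Matrix (Fin n) (Fin n) ℝ) (s : E n → Fin n → ℝ) :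
    0 ≤ E72.dfK U s := by
  rw [dfK_eq]
  exact fr_nonneg _

/-- **SP-LIM** -/
theorem stmtLim (P : F1) : E72.StmtLim P := by
  intro n φ V a b M κ U s hB hF hn hd
  set A : ℕ → Fin n → Matrix (Fin n) (Fin n) ℝ := fun k => E72.A1 (U k) (s k) with hAdef
  have hA : ∀ k c, (A k c)ᵀ = A k c := fun k c => A1_symm (hF k) c
  set ρ : ℕ → ℝ := fun k => E72.nlin (U k) (s k) + E72.dfK (U k) (s k) with hρdef
  have hρ : Tendsto ρ atTop (𝓝 0) := by
    have := hn.add hd
    simpa using this
  have h1 : ∀ k, Ex Q (fun z => fr (GG (U k) (s k) z - lc (A k) z)) ≤ ρ k := by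
    intro k
    rw [← nlin_eq]
    have := dfK_nonneg (U k) (s k)
    simp only [hρdef]
    linarith
  have h2 : ∀ k, min 1 (fr (∑ c, A k c * A k c - 1)) ≤ ρ k := by
    intro k
    refine (min_le_right _ _).trans ?_
    simp only [hAdef]
    rw [← dfK_eq]
    have := nlin_nonneg (U k) (s k)
    simp only [hρdef]
    linarith
  obtain ⟨sub, A0, hsub, hA0, hK, hlim, hG, hM⟩ :=
    lim12 P (L_lip P) φ V a b M κ hB U s hF A hA ρ hρ h1 h2
  set M0 : E n → Matrix (Fin n) (Fin n) ℝ := fun z => mf P.L (lc A0 z) with hM0def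
  have hM0 : ∀ i j, Gr fun z => M0 z i j := fun i j => gr_mf_lc hA0 (L_lip P) i j
  have hM0s : ∀ z i j, M0 z i j = M0 z j i := by
    intro z i j
    obtain ⟨U', m', hdec⟩ := exists_dec (lc_symm hA0 z)
    have h := hdec.mf_symm P.L
    simp only [hM0def]
    conv_lhs => rw [← h]
    rfl
  -- weak symmetry of the limit
  have hw : H372.WeakHess fun z => mf P.L (∑ c, z c • A0 c) := by
    refine H372.weakHess_of_gauss fun ψ hψ i j k => ?_
    have h := weak_symm (fun k => φ (sub k)) (fun k => V (sub k)) (fun k => a (sub k))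
      (fun k => b (sub k)) (fun k => M (sub k)) (fun k => κ (sub k)) (fun k => hB (sub k))
      M0 hM hM0 (ψ := ψ) (hψ.1.of_le (WithTop.coe_le_coe.2 (le_top : (2 : ℕ∞) ≤ ⊤))) hψ.2 i j k
    have e1 : (fun z : E n => mf P.L (∑ c, z c • A0 c) i j * (z k * ψ z - pd k ψ z)) =
        fun z => M0 z j i * ds k ψ z := by
      funext z
      rw [← hM0s z i j]
      rfl
    have e2 : (fun z : E n => mf P.L (∑ c, z c • A0 c) i k * (z j * ψ z - pd j ψ z)) =
        fun z => M0 z k i * ds j ψ z := by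
      funext z
      rw [← hM0s z i k]
      rfl
    rw [e1, e2]
    exact h
  obtain ⟨O, hO, hAO, hMO⟩ := H372.eq34 P A0 hA0 hK hw
  refine ⟨O, sub, hO, hsub, fun i => ?_⟩
  have hrow : ∀ i, ∑ j, O i j ^ 2 = 1 := by
    intro i
    have := H372.orth_rows hO i i
    rw [if_pos rfl] at this
    rw [← this]
    exact Finset.sum_congr rfl fun j _ => by ring
  -- the target maps
  set T : Fin n → E n → ℝ := fun j z => ∑ i, O i j * (P.t (lf (O i) z) - 1) with hTdef
  have hTC : ∀ j, ContDiff ℝ 1 (T j) := fun j => by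
    simp only [hTdef]
    exact ContDiff.sum fun i _ =>
      contDiff_const.mul ((comp_contDiff P.ht (cont_L P) (O i)).sub contDiff_const)
  have hTg : ∀ j, Gr (T j) := fun j => by
    simp only [hTdef]
    exact Gr.sum _ fun i _ => ((gr_t P (O i)).sub (Gr.const 1)).const_mul (O i j)
  have hTd : ∀ j k z, pd k (T j) z = M0 z k j := by
    intro j k z
    have e1 : M0 z k j = ∑ i, O i j * (P.L (lf (O i) z) * O i k) := by
      have h3 : M0 z = Oᵀ * Matrix.diagonal (fun i => P.L ((O *ᵥ z.ofLp) i)) * O := hMO z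
      rw [h3, Matrix.mul_apply]
      refine Finset.sum_congr rfl fun i _ => ?_
      rw [Matrix.mul_diagonal, Matrix.transpose_apply]
      have e2 : (O *ᵥ z.ofLp) i = lf (O i) z := rfl
      rw [e2]
      ring
    rw [e1]
    have h4 : ∀ i, HasFDerivAt (fun z => O i j * (P.t (lf (O i) z) - 1))
        (O i j • (P.L (lf (O i) z) • ∑ j, O i j • (EuclideanSpace.proj j : E n →L[ℝ] ℝ))) z :=
      fun i => (((P.ht (lf (O i) z)).comp_hasFDerivAt z (lf_hasFD (O i) z)).sub_const 1).const_mul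
        (O i j)
    have h5 : HasFDerivAt (T j) (∑ i, O i j • (P.L (lf (O i) z) •
        ∑ j, O i j • (EuclideanSpace.proj j : E n →L[ℝ] ℝ))) z := by
      simp only [hTdef]
      exact HasFDerivAt.fun_sum fun i _ => h4 i
    unfold pd
    rw [h5.fderiv, ContinuousLinearMap.sum_apply]
    refine Finset.sum_congr rfl fun i _ => ?_
    simp only [_root_.smul_apply, smul_eq_mul, ContinuousLinearMap.sum_apply]
    congr 2
    unfold ei
    rw [Finset.sum_eq_single k]
    · simp
    · intro j _ hj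
      simp [EuclideanSpace.single_apply, hj]
    · simp
  have hTE : ∀ j, Ex Q (T j) = 0 := by
    intro j
    simp only [hTdef]
    rw [Ex_sum regQ _ fun i _ => ((gr_t P (O i)).sub (Gr.const 1)).const_mul (O i j)]
    refine Finset.sum_eq_zero fun i _ => ?_
    rw [Ex_const_mul, Ex_sub regQ (gr_t P (O i)) (Gr.const 1), Ex_t P (hrow i), Ex_const regQ]
    ring
  -- convergence of the maps, coordinatewise
  have hgl : ∀ j, Tendsto (fun k => Ex Q (fun z => (gradient (φ (sub k)) z j -
      Ex Q (fun z => gradient (φ (sub k)) z j) - (T j z - Ex Q (T j))) ^ 2)) atTop (𝓝 0) :=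
    fun j => grad_lim (fun k => φ (sub k)) (fun k => V (sub k)) (fun k => a (sub k))
      (fun k => b (sub k)) (fun k => M (sub k)) (fun k => κ (sub k)) (fun k => hB (sub k))
      M0 hM hM0 T hTC hTg hTd j
  have hsum := tendsto_finsetSum (Finset.univ : Finset (Fin n)) fun j _ => hgl j
  rw [Finset.sum_const_zero] at hsum
  refine squeeze_zero (fun k => Ex_nonneg _ fun z => sq_nonneg _) (fun k => ?_) hsum
  have hgp : ∀ j, Gr (pd j (φ (sub k))) := fun j => gr_pd_BP (hB (sub k)) j
  have hgj : ∀ j, Gr fun z => gradient (φ (sub k)) z j -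
      Ex Q (fun z => gradient (φ (sub k)) z j) - (T j z - Ex Q (T j)) := fun j => by
    simp only [S151.gradient_apply]
    exact ((hgp j).sub (Gr.const _)).sub ((hTg j).sub (Gr.const _))
  rw [← Ex_sum regQ _ fun j _ => (hgj j).pow 2]
  have hE : Ex Q (fun z => ∑ j, O i j * pd j (φ (sub k)) z) =
      ∑ j, O i j * Ex Q (fun z => pd j (φ (sub k)) z) := by
    rw [Ex_sum regQ _ fun j _ => (hgp j).const_mul (O i j)]
    exact Finset.sum_congr rfl fun j _ => Ex_const_mul _ _ _
  have hTi : ∀ z, ∑ j, O i j * T j z = P.t (∑ j, O i j * z j) - 1 := by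
    intro z
    simp only [hTdef, Finset.mul_sum]
    rw [Finset.sum_comm]
    have e1 : ∀ l, ∑ j, O i j * (O l j * (P.t (lf (O l) z) - 1)) =
        (if i = l then 1 else 0) * (P.t (lf (O l) z) - 1) := by
      intro l
      rw [← H372.orth_rows hO i l, Finset.sum_mul]
      exact Finset.sum_congr rfl fun j _ => by ring
    simp only [e1]
    simp only [ite_mul, one_mul, zero_mul, Finset.sum_ite_eq, Finset.mem_univ, if_true]
    rfl
  have hpt : ∀ z, (∑ j, O i j * pd j (φ (sub k)) z) -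
      Ex Q (fun z => ∑ j, O i j * pd j (φ (sub k)) z) - (P.t (∑ j, O i j * z j) - 1) =
      ∑ j, O i j * (gradient (φ (sub k)) z j - Ex Q (fun z => gradient (φ (sub k)) z j) -
        (T j z - Ex Q (T j))) := by
    intro z
    rw [hE, ← hTi z, ← Finset.sum_sub_distrib, ← Finset.sum_sub_distrib]
    refine Finset.sum_congr rfl fun j _ => ?_
    rw [hTE j]
    simp only [S151.gradient_apply]
    ring
  refine Ex_mono regQ ?_ ?_ fun z => ?_
  · have hg := (Gr.sum (Finset.univ : Finset (Fin n)) fun j _ => (hgj j).const_mul (O i j)).pow 2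
    have e : (fun z => ((∑ j, O i j * pd j (φ (sub k)) z) -
        Ex Q (fun z => ∑ j, O i j * pd j (φ (sub k)) z) - (P.t (∑ j, O i j * z j) - 1)) ^ 2) =
        fun z => (∑ j, O i j * (gradient (φ (sub k)) z j -
          Ex Q (fun z => gradient (φ (sub k)) z j) - (T j z - Ex Q (T j)))) ^ 2 :=
      funext fun z => by rw [hpt z]
    rw [e]
    exact hg
  · exact Gr.sum _ fun j _ => (hgj j).pow 2
  · rw [hpt z]
    have h := Finset.sum_mul_sq_le_sq_mul_sq (Finset.univ : Finset (Fin n)) (fun j => O i j)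
      (fun j => gradient (φ (sub k)) z j - Ex Q (fun z => gradient (φ (sub k)) z j) -
        (T j z - Ex Q (T j)))
    rw [hrow i, one_mul] at h
    exact h

end Vale.Agent.P254.SP567
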